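import Crest.Agent.R177.Coincide

set_option autoImplicit false

namespace Crest.Agent.R177.JumpsAux

open Crest.Agent.R177

variable {V E T : Type} {Γ : LG V E T} {z : V} {K B L0 M : ℕ} (c : Config Γ z K B L0 M)

theorem blk_lo (i : ℕ) : i / L0 * L0 ≤ i := Nat.div_mul_le_self i L0

theorem blk_hi (hL : 0 < L0) (i : ℕ) : i + 1 ≤ i / L0 * L0 + L0 := by
  have := Nat.lt_div_mul_add (a := i) hL
  omega

theorem girth2 (hL : 0 < L0) (hg : Γ.GirthGt (2 * L0)) : Γ.GirthGt 2 := hg.mono (by omega)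

/-- equal edges have matching end vertices -/
theorem ends_of_edge {x y : Fin K × ℕ} (hx : x.2 < c.len x.1) (hy : y.2 < c.len y.1)
    (h : (c.ed x).1 = (c.ed y).1) :
    (c.vtx x = c.vtx y ∧ c.vtx (x.1, x.2 + 1) = c.vtx (y.1, y.2 + 1)) ∨
      (c.vtx x = c.vtx (y.1, y.2 + 1) ∧ c.vtx (x.1, x.2 + 1) = c.vtx y) := by
  rw [c.vtx_st hx, c.vtx_st hy, c.vtx_en hx, c.vtx_en hy]
  rcases h1 : c.ed x with ⟨e, b⟩
  rcases h2 : c.ed y with ⟨e', b'⟩
  rw [h1, h2] at h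
  simp only at h
  subst h
  cases b <;> cases b' <;> simp [LG.st, LG.en]

theorem edge_of_ends (hb : Γ.Bip) (hg : Γ.GirthGt 2) {x y : Fin K × ℕ} (hx : x.2 < c.len x.1)
    (hy : y.2 < c.len y.1)
    (h : (c.vtx x = c.vtx y ∧ c.vtx (x.1, x.2 + 1) = c.vtx (y.1, y.2 + 1)) ∨
      (c.vtx x = c.vtx (y.1, y.2 + 1) ∧ c.vtx (x.1, x.2 + 1) = c.vtx y)) :
    (c.ed x).1 = (c.ed y).1 := by
  rw [← c.pat_sameE hb hg hx hy, Pat.sameE, c.pat_sameU hb hx hy, c.pat_sameW hb hx hy]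
  rw [c.vtx_st hx, c.vtx_st hy, c.vtx_en hx, c.vtx_en hy] at h
  rcases h1 : c.ed x with ⟨e, b⟩
  rcases h2 : c.ed y with ⟨e', b'⟩
  rw [h1, h2] at h
  have n1 := hb e e'
  have n2 := hb e' e
  cases b <;> cases b' <;> simp only [LG.st, LG.en, cond_true, cond_false] at h ⊢ <;>
    rcases h with ⟨h3, h4⟩ | ⟨h3, h4⟩ <;>
    first | exact ⟨h3, h4⟩ | exact ⟨h4, h3⟩ | exact absurd h3 n1 | exact absurd h4 n1

theorem vtx_inj (hg : Γ.GirthGt (2 * L0)) (p : Fin K) (a i i' : ℕ)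
    (hi : (p, i) ∈ verts c.len) (hi' : (p, i') ∈ verts c.len) (h1 : a ≤ i) (h2 : i ≤ a + L0)
    (h3 : a ≤ i') (h4 : i' ≤ a + L0) (h : c.vtx (p, i) = c.vtx (p, i')) : i = i' := by
  obtain ⟨i0, i0', n, s, H⟩ := coincide c hg p p a a
  obtain ⟨k, -, e1, e2⟩ := (H i i hi hi h1 h2 h1 h2).mp rfl
  obtain ⟨k', -, e1', e2'⟩ := (H i i' hi hi' h1 h2 h3 h4).mp h
  cases s <;> simp at e2 e2' <;> omega

theorem edge_inj (hL : 0 < L0) (hg : Γ.GirthGt (2 * L0)) (p : Fin K) {i i' : ℕ}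
    (hi : i < c.len p) (hi' : i' < c.len p) (hβ : i / L0 = i' / L0)
    (h : (c.ed (p, i)).1 = (c.ed (p, i')).1) : i = i' := by
  have l1 := blk_lo (L0 := L0) i
  have l2 := blk_lo (L0 := L0) i'
  have u1 := blk_hi hL i
  have u2 := blk_hi hL i'
  rw [← hβ] at l2 u2
  have v : ∀ j, j ≤ c.len p → (p, j) ∈ verts c.len := fun j hj => by
    rw [mem_verts]; exact ⟨by simp only; omega, hj⟩
  rcases ends_of_edge c (x := (p, i)) (y := (p, i')) hi hi' h with ⟨h1, -⟩ | ⟨h1, h2⟩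
  · exact vtx_inj c hg p _ i i' (v _ hi.le) (v _ hi'.le) l1 (by omega) l2 (by omega) h1
  · have e1 := vtx_inj c hg p _ i (i' + 1) (v _ hi.le) (v _ hi') l1 (by omega) (by omega) u2 h1
    have e2 := vtx_inj c hg p _ (i + 1) i' (v _ hi) (v _ hi'.le) (by omega) u1 l2 (by omega) h2
    omega

/-- the edge of the dart `x` occurs in the block `t` -/
def In (x : Fin K × ℕ) (t : Fin K × ℕ) : Prop :=
  ∃ i', i' < c.len t.1 ∧ i' / L0 = t.2 ∧ (c.ed x).1 = (c.ed (t.1, i')).1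

theorem In_convex (hL : 0 < L0) (hb : Γ.Bip) (hg : Γ.GirthGt (2 * L0)) (p : Fin K)
    (t : Fin K × ℕ) {i1 i i2 : ℕ} (h1 : i1 ≤ i) (h2 : i ≤ i2) (hi2 : i2 < c.len p)
    (hβ : i1 / L0 = i2 / L0) (a1 : In c (p, i1) t) (a2 : In c (p, i2) t) : In c (p, i) t := by
  obtain ⟨p', β'⟩ := t
  obtain ⟨j1, hj1, rfl, e1⟩ := a1
  obtain ⟨j2, hj2, hβ2, e2⟩ := a2
  simp only at hj1 hj2 hβ2 e1 e2
  have l1 := blk_lo (L0 := L0) i1
  have u2 := blk_hi hL i2
  rw [← hβ] at u2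
  have l3 := blk_lo (L0 := L0) j1
  have u3 := blk_hi hL j1
  have l4 := blk_lo (L0 := L0) j2
  have u4 := blk_hi hL j2
  rw [hβ2] at l4 u4
  have v : ∀ j, j ≤ c.len p → (p, j) ∈ verts c.len := fun j hj => by
    rw [mem_verts]; exact ⟨by simp only; omega, hj⟩
  have v' : ∀ j, j ≤ c.len p' → (p', j) ∈ verts c.len := fun j hj => by
    rw [mem_verts]; exact ⟨by simp only; omega, hj⟩
  obtain ⟨i0, i0', n, s, H⟩ := coincide c hg p p' (i1 / L0 * L0) (j1 / L0 * L0)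
  obtain ⟨m1, hm1, hm1', f1⟩ : ∃ m, j1 ≤ m ∧ m ≤ j1 + 1 ∧ c.vtx (p, i1) = c.vtx (p', m) := by
    rcases ends_of_edge c (x := (p, i1)) (y := (p', j1)) (by simp only; omega) hj1 e1 with
      ⟨h, -⟩ | ⟨h, -⟩
    · exact ⟨j1, le_rfl, by omega, h⟩
    · exact ⟨j1 + 1, by omega, le_rfl, h⟩
  obtain ⟨m2, hm2, hm2', f2⟩ : ∃ m, j2 ≤ m ∧ m ≤ j2 + 1 ∧ c.vtx (p, i2 + 1) = c.vtx (p', m) := by
    rcases ends_of_edge c (x := (p, i2)) (y := (p', j2)) hi2 hj2 e2 with ⟨-, h⟩ | ⟨-, h⟩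
    · exact ⟨j2 + 1, by omega, le_rfl, h⟩
    · exact ⟨j2, le_rfl, by omega, h⟩
  obtain ⟨k1, hk1, g1, g1'⟩ := (H i1 m1 (v _ (by omega)) (v' _ (by omega)) l1 (by omega)
    (by omega) (by omega)).mp f1
  obtain ⟨k2, hk2, g2, g2'⟩ := (H (i2 + 1) m2 (v _ (by omega)) (v' _ (by omega)) (by omega) u2
    (by omega) (by omega)).mp f2
  have hdiv : ∀ j, j1 / L0 * L0 ≤ j → j + 1 ≤ j1 / L0 * L0 + L0 → j / L0 = j1 / L0 := by
    intro j a b
    apply Nat.div_eq_of_lt_le a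
    rw [add_mul, one_mul]; omega
  cases s
  · simp only [Bool.false_eq_true, if_false] at g1' g2' H
    refine ⟨i0' - (i - i0) - 1, by simp only; omega, hdiv _ (by omega) (by omega), ?_⟩
    apply edge_of_ends c hb (girth2 hL hg) (x := (p, i)) (y := (p', i0' - (i - i0) - 1))
      (by simp only; omega) (by simp only; omega)
    right
    constructor
    · exact (H i _ (v _ (by omega)) (v' _ (by simp only; omega)) (by omega) (by omega)
        (by simp only; omega) (by simp only; omega)).mpr ⟨i - i0, by omega, by omega, by simp only; omega⟩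
    · exact (H (i + 1) _ (v _ (by omega)) (v' _ (by omega)) (by omega) (by omega)
        (by omega) (by omega)).mpr ⟨i - i0 + 1, by omega, by omega, by omega⟩
  · simp only [if_true] at g1' g2' H
    refine ⟨i0' + (i - i0), by simp only; omega, hdiv _ (by omega) (by omega), ?_⟩
    apply edge_of_ends c hb (girth2 hL hg) (x := (p, i)) (y := (p', i0' + (i - i0)))
      (by simp only; omega) (by simp only; omega)
    left
    constructor
    · exact (H i _ (v _ (by omega)) (v' _ (by omega)) (by omega) (by omega)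
        (by omega) (by omega)).mpr ⟨i - i0, by omega, by omega, by omega⟩
    · exact (H (i + 1) _ (v _ (by omega)) (v' _ (by simp only; omega)) (by omega) (by omega)
        (by simp only; omega) (by simp only; omega)).mpr
        ⟨i - i0 + 1, by omega, by omega, by simp only; omega⟩

end Crest.Agent.R177.JumpsAux
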