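import Crest.Agent.R177.Jumps.Blocks

set_option autoImplicit false

namespace Crest.Agent.R177.JumpsAux

open Crest.Agent.R177

variable {V E T : Type} {Γ : LG V E T} {z : V} {K B L0 Cm : ℕ}

open Classical in
theorem mult_eq (c : Config Γ z K B L0 (Cm * L0)) (hL : 0 < L0) (hb : Γ.Bip)
    (hg : Γ.GirthGt (2 * L0)) (x : Fin K × ℕ) (hx : x.2 < c.len x.1) :
    c.pat.mult x = ((Finset.univ ×ˢ Finset.range (2 * Cm)).filter (fun t => In c x t)).card := by
  unfold Pat.mult
  apply Finset.card_nbij (fun y => (y.1, y.2 / L0))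
  · rintro ⟨p, i⟩ hy
    simp only [Finset.coe_filter, Config.pat_len, mem_darts, Set.mem_ofPred_eq] at hy
    obtain ⟨hy, he⟩ := hy
    rw [c.pat_sameE hb (girth2 hL hg) hx hy] at he
    simp only [Finset.coe_filter, Finset.mem_product, Finset.mem_univ, Finset.mem_range, true_and,
      Set.mem_ofPred_eq]
    refine ⟨?_, i, hy, rfl, he⟩
    rw [Nat.div_lt_iff_lt_mul hL]
    have := c.len_hi p
    rw [mul_assoc]; omega
  · rintro ⟨p, i⟩ hy ⟨p', i'⟩ hy' h
    simp only [Finset.coe_filter, Config.pat_len, mem_darts, Set.mem_ofPred_eq] at hy hy'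
    simp only [Prod.mk.injEq] at h
    obtain ⟨rfl, h⟩ := h
    obtain ⟨hy, he⟩ := hy
    obtain ⟨hy', he'⟩ := hy'
    rw [c.pat_sameE hb (girth2 hL hg) hx hy] at he
    rw [c.pat_sameE hb (girth2 hL hg) hx hy'] at he'
    rw [edge_inj c hL hg p hy hy' h (he.symm.trans he')]
  · rintro ⟨p, β⟩ ht
    simp only [Finset.coe_filter, Set.mem_ofPred_eq] at ht
    obtain ⟨-, i, hi, hβ, he⟩ := ht
    refine ⟨(p, i), ?_, Prod.ext rfl hβ⟩
    simp only [Finset.coe_filter, Config.pat_len, mem_darts, Set.mem_ofPred_eq]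
    exact ⟨hi, (c.pat_sameE hb (girth2 hL hg) hx hi).mpr he⟩

theorem mult_le (c : Config Γ z K B L0 (Cm * L0)) (hL : 0 < L0) (hb : Γ.Bip)
    (hg : Γ.GirthGt (2 * L0)) (x : Fin K × ℕ) (hx : x ∈ darts c.len) :
    c.pat.mult x ≤ 2 * Cm * K := by
  classical
  rw [mult_eq c hL hb hg x ((mem_darts _ _).mp hx)]
  refine (Finset.card_filter_le _ _).trans ?_
  simp [mul_comm]

/-- positions after which the multiplicity changes -/
noncomputable def jumpSet {M : ℕ} (c : Config Γ z K B L0 M) : Finset (Fin K × ℕ) :=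
  (darts c.len).filter (fun x => x.2 + 1 < c.len x.1 ∧ c.pat.mult x ≠ c.pat.mult (x.1, x.2 + 1))

theorem card_jumps_le (c : Config Γ z K B L0 (Cm * L0)) (hL : 0 < L0) (hb : Γ.Bip)
    (hg : Γ.GirthGt (2 * L0)) :
    (jumpSet c).card ≤ K * (2 * Cm) * (K * (2 * Cm) * 3) := by
  classical
  let P : (Fin K × ℕ) × (Fin K × ℕ) × Fin 3 → Fin K × ℕ → Prop := fun t x =>
    x.1 = t.1.1 ∧ x.2 / L0 = t.1.2 ∧
      ((t.2.2 = 0 ∧ (x.2 + 1) / L0 ≠ x.2 / L0) ∨
        (t.2.2 = 1 ∧ (x.2 + 1) / L0 = x.2 / L0 ∧ In c x t.2.1 ∧ ¬ In c (x.1, x.2 + 1) t.2.1) ∨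
        (t.2.2 = 2 ∧ (x.2 + 1) / L0 = x.2 / L0 ∧ ¬ In c x t.2.1 ∧ In c (x.1, x.2 + 1) t.2.1))
  let S : Finset (Fin K × ℕ) := Finset.univ ×ˢ Finset.range (2 * Cm)
  have hsub : jumpSet c ⊆ (S ×ˢ S ×ˢ (Finset.univ : Finset (Fin 3))).biUnion
      (fun t => (jumpSet c).filter (P t)) := by
    rintro ⟨p, i⟩ hx
    have hx' := hx
    simp only [jumpSet, Finset.mem_filter, mem_darts] at hx'
    obtain ⟨hi, hi1, hne⟩ := hx'
    have hS : (p, i / L0) ∈ S := by
      simp only [S, Finset.mem_product, Finset.mem_univ, Finset.mem_range, true_and]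
      rw [Nat.div_lt_iff_lt_mul hL]
      have := c.len_hi p
      rw [mul_assoc]; omega
    rw [Finset.mem_biUnion]
    by_cases hβ : (i + 1) / L0 = i / L0
    · rw [mult_eq c hL hb hg _ hi, mult_eq c hL hb hg (p, i + 1) hi1] at hne
      have : ∃ t ∈ S, ¬ (In c (p, i) t ↔ In c (p, i + 1) t) := by
        by_contra h
        push Not at h
        exact hne (congrArg Finset.card (Finset.filter_congr h))
      obtain ⟨t, ht, hn⟩ := this
      by_cases h1 : In c (p, i) t
      · refine ⟨((p, i / L0), t, 1), by simp only [Finset.mem_product]; simp [hS, ht],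
          Finset.mem_filter.mpr ⟨hx, rfl, rfl, Or.inr (Or.inl ⟨rfl, hβ, h1, ?_⟩)⟩⟩
        tauto
      · refine ⟨((p, i / L0), t, 2), by simp only [Finset.mem_product]; simp [hS, ht],
          Finset.mem_filter.mpr ⟨hx, rfl, rfl, Or.inr (Or.inr ⟨rfl, hβ, h1, ?_⟩)⟩⟩
        tauto
    · exact ⟨((p, i / L0), (p, i / L0), 0), by simp only [Finset.mem_product]; simp [hS],
        Finset.mem_filter.mpr ⟨hx, rfl, rfl, Or.inl ⟨rfl, hβ⟩⟩⟩
  refine (Finset.card_le_card hsub).trans ?_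
  refine (Finset.card_biUnion_le_card_mul _ _ 1 ?_).trans (by simp [S])
  rintro ⟨⟨p, β⟩, t, τ⟩ -
  have key : ∀ i i' : ℕ, i < i' → i' + 1 < c.len p → P ((p, β), t, τ) (p, i) →
      P ((p, β), t, τ) (p, i') → False := by
    intro i i' hlt hi' h h'
    obtain ⟨-, hβ, h⟩ := h
    obtain ⟨-, hβ', h'⟩ := h'
    simp only at hβ hβ' h h'
    rcases h with ⟨rfl, h⟩ | ⟨rfl, h0, h1, h2⟩ | ⟨rfl, h0, h1, h2⟩
    · apply h
      apply le_antisymm _ (Nat.div_le_div_right (by omega))
      rw [hβ, ← hβ']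
      exact Nat.div_le_div_right hlt
    · rcases h' with ⟨h, -⟩ | ⟨-, h0', h1', h2'⟩ | ⟨h, -⟩
      · exact absurd h (by decide)
      · exact h2 (In_convex c hL hb hg p t (Nat.le_succ i) hlt (by omega) (hβ.trans hβ'.symm)
          h1 h1')
      · exact absurd h (by decide)
    · rcases h' with ⟨h, -⟩ | ⟨h, -⟩ | ⟨-, h0', h1', h2'⟩
      · exact absurd h (by decide)
      · exact absurd h (by decide)
      · exact h1' (In_convex c hL hb hg p t hlt (Nat.le_succ i') hi'
          (h0.trans (hβ.trans (hβ'.symm.trans h0'.symm))) h2 h2')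
  rw [Finset.card_le_one]
  rintro ⟨q, i⟩ hx ⟨q', i'⟩ hx'
  simp only [jumpSet, Finset.mem_filter, mem_darts] at hx hx'
  obtain ⟨⟨-, hi, -⟩, hP⟩ := hx
  obtain ⟨⟨-, hi', -⟩, hP'⟩ := hx'
  obtain rfl : q = p := hP.1
  obtain rfl : q' = q := hP'.1
  rcases lt_trichotomy i i' with h | h | h
  · exact (key i i' h hi' hP hP').elim
  · rw [h]
  · exact (key i' i h hi hP' hP).elim

theorem mem_J {M : ℕ} (c : Config Γ z K B L0 M) (j : ℕ) (x : Fin K × ℕ) :
    x ∈ c.pat.J j ↔ x.2 < c.len x.1 ∧ j ≤ c.pat.mult x := by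
  simp [Pat.J]

theorem pred_jump {M : ℕ} (c : Config Γ z K B L0 M) (j : ℕ) (p : Fin K) (i : ℕ)
    (h : (p, i + 1) ∈ c.pat.J j) (h' : (p, i) ∉ c.pat.J j) : (p, i) ∈ jumpSet c := by
  rw [mem_J] at h h'
  simp only [jumpSet, Finset.mem_filter, mem_darts]
  simp only at h h'
  refine ⟨by omega, h.1, fun e => h' ⟨by omega, e ▸ h.2⟩⟩

theorem succ_jump {M : ℕ} (c : Config Γ z K B L0 M) (j : ℕ) (p : Fin K) (i : ℕ)
    (hi : i + 1 < c.len p) (h : (p, i) ∈ c.pat.J j) (h' : (p, i + 1) ∉ c.pat.J j) :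
    (p, i) ∈ jumpSet c := by
  rw [mem_J] at h h'
  simp only [jumpSet, Finset.mem_filter, mem_darts]
  simp only at h h'
  refine ⟨by omega, hi, fun e => h' ⟨hi, e ▸ h.2⟩⟩

theorem nRun_le {M : ℕ} (c : Config Γ z K B L0 M) (j : ℕ) :
    c.pat.nRun j ≤ K + (jumpSet c).card := by
  classical
  unfold Pat.nRun
  refine (Finset.card_le_card (t := Finset.univ.image (fun p : Fin K => (p, 0)) ∪
    (jumpSet c).image (fun x => (x.1, x.2 + 1))) ?_).trans ?_
  · rintro ⟨p, i⟩ hx
    rw [Finset.mem_filter] at hx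
    rcases i with _ | i
    · simp
    · refine Finset.mem_union_right _ (Finset.mem_image.mpr ⟨(p, i), ?_, rfl⟩)
      exact pred_jump c j p i hx.1 (by simpa using hx.2)
  · refine (Finset.card_union_le _ _).trans (add_le_add ?_ Finset.card_image_le)
    exact Finset.card_image_le.trans (by simp)

theorem neighbour {M : ℕ} (c : Config Γ z K B L0 M) (hb : Γ.Bip) (p : Fin K) (i : ℕ)
    (hi : i + 1 < c.len p) (ho : (c.ed (p, i)).2 = false) :
    Γ.src (c.ed (p, i)).1 = Γ.src (c.ed (p, i + 1)).1 ∧ (c.ed (p, i)).1 ≠ (c.ed (p, i + 1)).1 := by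
  have hw := c.walk p i hi
  have hn := c.nb p i hi
  have ho' := c.ori_succ hb p i hi
  rcases h1 : c.ed (p, i) with ⟨e, b⟩
  rcases h2 : c.ed (p, i + 1) with ⟨e', b'⟩
  rw [h1, h2] at hw hn ho'
  rw [h1] at ho
  simp only at ho ho'
  subst ho
  subst ho'
  refine ⟨hw, fun h => hn ?_⟩
  simp only at h
  simp [flp, h]

theorem nLeaf_le {M : ℕ} (c : Config Γ z K B L0 M) (hL : 0 < L0) (hb : Γ.Bip)
    (hg : Γ.GirthGt (2 * L0)) (j : ℕ) :
    c.pat.nLeaf j ≤ 2 * K + 2 * (jumpSet c).card := by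
  classical
  unfold Pat.nLeaf
  refine (Finset.card_le_card (t := (Finset.univ.image (fun p : Fin K => (p, 0)) ∪
    Finset.univ.image (fun p : Fin K => (p, c.len p - 1))) ∪
    ((jumpSet c).image (fun x => (x.1, x.2 + 1)) ∪ jumpSet c)) ?_).trans ?_
  · rintro ⟨p, i⟩ hx
    rw [Finset.mem_filter] at hx
    obtain ⟨hJ, -, hleaf⟩ := hx
    have hi : i < c.len p := ((mem_J c j _).mp hJ).1
    rcases ho : (c.ed (p, i)).2 with _ | _
    · by_cases hl : i + 1 < c.len p
      · obtain ⟨h1, h2⟩ := neighbour c hb p i hl ho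
        refine Finset.mem_union_right _ (Finset.mem_union_right _ ?_)
        refine succ_jump c j p i hl hJ (fun h => h2 ?_)
        exact (c.pat_sameE hb (girth2 hL hg) (x := (p, i)) (y := (p, i + 1)) hi hl).mp
          (hleaf _ h ((c.pat_sameU hb (x := (p, i)) (y := (p, i + 1)) hi hl).mpr h1))
      · refine Finset.mem_union_left _ (Finset.mem_union_right _ ?_)
        exact Finset.mem_image.mpr ⟨p, Finset.mem_univ _, Prod.ext rfl (by simp only; omega)⟩
    · rcases i with _ | i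
      · simp
      · have ho' : (c.ed (p, i)).2 = false := by
          have := c.ori_succ hb p i hi
          rw [ho] at this
          simpa using this
        obtain ⟨h1, h2⟩ := neighbour c hb p i hi ho'
        refine Finset.mem_union_right _ (Finset.mem_union_left _
          (Finset.mem_image.mpr ⟨(p, i), ?_, rfl⟩))
        refine pred_jump c j p i hJ (fun h => h2 ?_)
        have hi' : i < c.len p := by omega
        exact ((c.pat_sameE hb (girth2 hL hg) (x := (p, i + 1)) (y := (p, i)) hi hi').mp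
          (hleaf _ h ((c.pat_sameU hb (x := (p, i + 1)) (y := (p, i)) hi hi').mpr h1.symm))).symm
  · have a1 : (Finset.univ.image (fun p : Fin K => (p, 0))).card ≤ K :=
      Finset.card_image_le.trans (by simp)
    have a2 : (Finset.univ.image (fun p : Fin K => (p, c.len p - 1))).card ≤ K :=
      Finset.card_image_le.trans (by simp)
    have a3 : ((jumpSet c).image (fun x => (x.1, x.2 + 1))).card ≤ (jumpSet c).card :=
      Finset.card_image_le
    refine (Finset.card_union_le _ _).trans ?_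
    have b1 := Finset.card_union_le (Finset.univ.image (fun p : Fin K => (p, 0)))
      (Finset.univ.image (fun p : Fin K => (p, c.len p - 1)))
    have b2 := Finset.card_union_le ((jumpSet c).image (fun x => (x.1, x.2 + 1))) (jumpSet c)
    omega

end Crest.Agent.R177.JumpsAux
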